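import Vale.Agent.P139.Final
import Vale.Agent.P139.MIAll

open MeasureTheory P139S
open scoped NNReal

universe u

theorem Vale.Agent.Results.P139.Blowup.result :
    ¬ Q1 ∧ ∀ M : ℕ, ∃ p : ℕ, M ≤ p ∧ Odd p ∧ 3 ≤ p ∧
    1 < (12 : ℝ) / 2 - 2 / ((p : ℝ) - 1) ∧ ∃ α₁ T₀ : ℝ, ∀ α : ℝ, α₁ < α → ∀ v : ℝ≥0, v ≠ 0 →
      ∀ (Ω : Type u) [MeasurableSpace Ω] (P : Measure Ω) [IsProbabilityMeasure P]
        (g : (Fin 12 → ℤ) → Ω → ℂ), IID P v g →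
        ∃ A : Set Ω, MeasurableSet A ∧ 0 < P A ∧ ∀ ω ∈ A, ∀ k : ℕ, 6 < k →
          ((k : ℝ) < α - 6 → 0 < lifespan p k (datum α fun n => g n ω)) ∧
          lifespan p k (datum α fun n => g n ω) ≤ ENNReal.ofReal T₀ :=
  S_main (P139.final_of P139.s_partMI)
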